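import Mathlib
import Vale.Agent.P333.H359.Inst
import Vale.Agent.P333.H950.M0
import Vale.Agent.P333.H802.M3a

set_option linter.all false

/-!
P333, ratio 2, part M3: the assignment of the algorithm is an integral optimum.
-/

namespace Vale.Agent.P333.H29

open Finset Vale.Agent.P333 Vale.Agent.P333.U Vale.Agent.P333.G Vale.Agent.P333.Y
  Vale.Agent.P333.H359

variable {S : List (List ℕ)} {L F : List Cir}

/-! ### Classes -/

theorem flatten_single (c : List (List ℕ)) : (c.map (fun s => [s])).flatten = c := by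
  induction c with
  | nil => rfl
  | cons s c ih => rw [List.map_cons, List.flatten_cons, ih]; rfl

theorem nodes_flatten (L F : List Cir) : (nodes L F).flatten = L.flatten := by
  unfold nodes
  induction L with
  | nil => rfl
  | cons c L ih =>
    rw [List.flatMap_cons, List.flatten_append, ih, List.flatten_cons]
    congr 1
    split_ifs
    · simp
    · exact flatten_single c

theorem mem_nodes {n : Cir} (hn : n ∈ nodes L F) :
    (n ∈ L ∧ n ∈ F) ∨ ∃ c ∈ L, c ∉ F ∧ ∃ s ∈ c, n = [s] := by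
  unfold nodes at hn
  obtain ⟨c, hc, hn⟩ := List.mem_flatMap.1 hn
  split_ifs at hn with h
  · rw [List.mem_singleton] at hn
    subst hn
    exact Or.inl ⟨hc, of_decide_eq_true h⟩
  · obtain ⟨t, ht, rfl⟩ := List.mem_map.1 hn
    exact Or.inr ⟨c, hc, by simpa using h, t, ht, rfl⟩

theorem mem_nodes_of_F {n : Cir} (h1 : n ∈ L) (h2 : n ∈ F) : n ∈ nodes L F := by
  unfold nodes
  refine List.mem_flatMap.2 ⟨n, h1, ?_⟩
  rw [if_pos (decide_eq_true h2)]
  exact List.mem_singleton.2 rfl

theorem flatten_nodup (hS : Sfree S) (hL : MinCover S L) : L.flatten.Nodup :=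
  (hL.perm).nodup_iff.2 hS.nodup

theorem str_inj (hS : Sfree S) (hL : MinCover S L) {u v : VS L} (h : str L u = str L v) :
    u = v :=
  (List.nodup_iff_injective_get.1 (flatten_nodup hS hL)) h

/-- Two classes with a common string are equal. -/
theorem node_idx (hS : Sfree S) (hL : MinCover S L) {i j : ℕ} (hi : i < (nodes L F).length)
    (hj : j < (nodes L F).length) {s : List ℕ} (h1 : s ∈ (nodes L F)[i])
    (h2 : s ∈ (nodes L F)[j]) : i = j := by
  have hnd : (nodes L F).flatten.Nodup := by rw [nodes_flatten]; exact flatten_nodup hS hL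
  have hp := (List.nodup_flatten.1 hnd).2
  rw [List.pairwise_iff_getElem] at hp
  rcases lt_trichotomy i j with h | h | h
  · exact absurd h2 (hp i j hi hj h h1)
  · exact h
  · exact absurd h1 (hp j i hj hi h h2)

theorem cir_eq (hS : Sfree S) (hL : MinCover S L) {v : VS L} {c : Cir} (hc : c ∈ L)
    (hv : str L v ∈ c) : cir L v = c :=
  cyc_unique hS hL (cir_mem v) hc (str_mem_cir v) hv

theorem lab_eq (hS : Sfree S) (hL : MinCover S L) {u v : VS L} (h : str L v ∈ cir L u) :
    labV L v = labV L u := by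
  refine lab_of_mem hS hL (labV_lt u) ?_
  unfold cir at h
  rw [List.getD_eq_getElem _ _ (labV_lt u)] at h
  exact h

theorem mem_Fs {v : VS L} : labV L v ∈ Fs L F ↔ cir L v ∈ F := by
  unfold Fs cir
  rw [mem_filter, mem_range]
  exact ⟨fun h => h.2, fun h => ⟨labV_lt v, h⟩⟩

/-- The class of a string. -/
theorem node_cases (hS : Sfree S) (hL : MinCover S L) (hF : ∀ c ∈ F, c ∈ L) {n : Cir}
    (hn : n ∈ nodes L F) {v : VS L} (hv : str L v ∈ n) :
    (labV L v ∈ Fs L F ∧ n ∈ F ∧ n = cir L v) ∨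
      (labV L v ∉ Fs L F ∧ n ∉ F ∧ n = [str L v]) := by
  rcases mem_nodes hn with ⟨h1, h2⟩ | ⟨c, hc, hcF, s, hs, rfl⟩
  · left
    have h := cir_eq hS hL h1 hv
    exact ⟨by rw [mem_Fs, h]; exact h2, h2, h.symm⟩
  · right
    rw [List.mem_singleton] at hv
    subst hv
    have h := cir_eq hS hL hc hs
    refine ⟨by rw [mem_Fs, h]; exact hcF, fun h' => ?_, rfl⟩
    have h2 := cir_eq (v := v) hS hL (hF _ h') (by simp)
    rw [h2] at h
    exact hcF (h ▸ h')

theorem exists_node (L F : List Cir) (v : VS L) :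
    ∃ i : Fin (nodes L F).length, str L v ∈ (nodes L F)[(i : ℕ)] := by
  have h : str L v ∈ (nodes L F).flatten := by rw [nodes_flatten]; exact str_mem v
  obtain ⟨n, hn, hv⟩ := List.mem_flatten.1 h
  obtain ⟨i, hi, rfl⟩ := List.getElem_of_mem hn
  exact ⟨⟨i, hi⟩, hv⟩

/-- The class of a string. -/
noncomputable def rho (L F : List Cir) (v : VS L) : Fin (nodes L F).length :=
  Classical.choose (exists_node L F v)

theorem mem_rho (v : VS L) : str L v ∈ (nodes L F)[(rho L F v : ℕ)] :=
  Classical.choose_spec (exists_node L F v)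

theorem rho_eq (hS : Sfree S) (hL : MinCover S L) {v : VS L} {i : Fin (nodes L F).length}
    (h : str L v ∈ (nodes L F)[(i : ℕ)]) : rho L F v = i :=
  Fin.ext (node_idx hS hL (rho L F v).2 i.2 (mem_rho v) h)

theorem rho_iff (hS : Sfree S) (hL : MinCover S L) (hF : ∀ c ∈ F, c ∈ L) (u v : VS L) :
    rho L F u = rho L F v ↔ u = v ∨ (labV L u ∈ Fs L F ∧ labV L v = labV L u) := by
  constructor
  · intro h
    have h1 := mem_rho (F := F) u
    have h2 : str L v ∈ (nodes L F)[(rho L F u : ℕ)] := by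
      have h2 := mem_rho (F := F) v
      simp only [← h] at h2
      exact h2
    have hn : (nodes L F)[(rho L F u : ℕ)] ∈ nodes L F := List.getElem_mem _
    rcases node_cases hS hL hF hn h1 with ⟨h3, h4, h5⟩ | ⟨h3, h4, h5⟩
    · right
      rw [h5] at h2
      exact ⟨h3, lab_eq hS hL h2⟩
    · left
      rw [h5, List.mem_singleton] at h2
      exact (str_inj hS hL h2).symm
  · rintro (h | ⟨h1, h2⟩)
    · rw [h]
    · apply rho_eq hS hL
      have h3 := mem_rho (F := F) v
      have hn : (nodes L F)[(rho L F v : ℕ)] ∈ nodes L F := List.getElem_mem _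
      rcases node_cases hS hL hF hn h3 with ⟨h4, h5, h6⟩ | ⟨h4, h5, h6⟩
      · rw [h6]
        have : cir L v = cir L u := by unfold cir; rw [h2]
        rw [this]
        exact str_mem_cir u
      · rw [h2] at h4
        exact absurd h1 h4

/-! ### Exits and entries -/

/-- The penalty of an exit. -/
noncomputable def px (L F : List Cir) (v : VS L) : ℕ :=
  if labV L v ∈ Fs L F then epsS (cir L v) (str L v) else 0

/-- The penalty of an entry. -/
noncomputable def pe (L F : List Cir) (v : VS L) : ℕ :=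
  if labV L v ∈ Fs L F then epmS (cir L v) (str L v) else 0

theorem mem_exs (hS : Sfree S) (hL : MinCover S L) (hF : ∀ c ∈ F, c ∈ L) {n : Cir}
    (hn : n ∈ nodes L F) {v : VS L} (hv : str L v ∈ n) : (str L v, px L F v) ∈ exs F n := by
  unfold exs px
  rcases node_cases hS hL hF hn hv with ⟨h1, h2, h3⟩ | ⟨h1, h2, h3⟩
  · rw [if_pos h1, if_pos (decide_eq_true h2)]
    obtain ⟨e, he, he1⟩ := exists_fst hv
    refine List.mem_map.2 ⟨e, he, ?_⟩
    rw [← he1, ← h3, epsS_of (nodup_mem hS hL (hF n h2)) he]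
  · rw [if_neg h1, if_neg (by simpa using h2)]
    exact List.mem_map.2 ⟨str L v, hv, rfl⟩

theorem mem_ens (hS : Sfree S) (hL : MinCover S L) (hF : ∀ c ∈ F, c ∈ L) {n : Cir}
    (hn : n ∈ nodes L F) {v : VS L} (hv : str L v ∈ n) : (str L v, pe L F v) ∈ ens F n := by
  unfold ens pe
  rcases node_cases hS hL hF hn hv with ⟨h1, h2, h3⟩ | ⟨h1, h2, h3⟩
  · rw [if_pos h1, if_pos (decide_eq_true h2)]
    obtain ⟨e, he, he1⟩ := exists_snd hv
    refine List.mem_map.2 ⟨e, he, ?_⟩
    rw [← he1, ← h3, epmS_of (nodup_mem hS hL (hF n h2)) he]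
  · rw [if_neg h1, if_neg (by simpa using h2)]
    exact List.mem_map.2 ⟨str L v, hv, rfl⟩

theorem exs_px (hS : Sfree S) (hL : MinCover S L) (hF : ∀ c ∈ F, c ∈ L) {n : Cir}
    (hn : n ∈ nodes L F) {p : List ℕ × ℕ} (hp : p ∈ exs F n) {v : VS L} (hv : str L v = p.1) :
    p.2 = px L F v ∧ p.2 ≤ (str L v).length := by
  have hvn : str L v ∈ n := by rw [hv]; exact H950.fst_mem_exs hp
  unfold exs at hp
  unfold px
  rcases node_cases hS hL hF hn hvn with ⟨h1, h2, h3⟩ | ⟨h1, h2, h3⟩
  · rw [if_pos (decide_eq_true h2)] at hp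
    obtain ⟨e, he, rfl⟩ := List.mem_map.1 hp
    rw [if_pos h1]
    dsimp only at hv ⊢
    rw [← h3, hv, epsS_of (nodup_mem hS hL (hF n h2)) he]
    exact ⟨rfl, ov_le_left _ _⟩
  · rw [if_neg (by simpa using h2)] at hp
    obtain ⟨s, hs, rfl⟩ := List.mem_map.1 hp
    rw [if_neg h1]
    exact ⟨rfl, Nat.zero_le _⟩

theorem ens_pe (hS : Sfree S) (hL : MinCover S L) (hF : ∀ c ∈ F, c ∈ L) {n : Cir}
    (hn : n ∈ nodes L F) {p : List ℕ × ℕ} (hp : p ∈ ens F n) {v : VS L} (hv : str L v = p.1) :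
    p.2 = pe L F v ∧ p.2 ≤ (str L v).length := by
  have hvn : str L v ∈ n := by rw [hv]; exact H950.fst_mem_ens hp
  unfold ens at hp
  unfold pe
  rcases node_cases hS hL hF hn hvn with ⟨h1, h2, h3⟩ | ⟨h1, h2, h3⟩
  · rw [if_pos (decide_eq_true h2)] at hp
    obtain ⟨e, he, rfl⟩ := List.mem_map.1 hp
    rw [if_pos h1]
    dsimp only at hv ⊢
    rw [← h3, hv, epmS_of (nodup_mem hS hL (hF n h2)) he]
    exact ⟨rfl, ov_le_right _ _⟩
  · rw [if_neg (by simpa using h2)] at hp
    obtain ⟨s, hs, rfl⟩ := List.mem_map.1 hp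
    rw [if_neg h1]
    exact ⟨rfl, Nat.zero_le _⟩

/-- The contracted loop. -/
theorem loop_iff (hS : Sfree S) (hL : MinCover S L) (hF : ∀ c ∈ F, c ∈ L) {n m : Cir}
    (hn : n ∈ nodes L F) (hm : m ∈ nodes L F) {u v : VS L} (hu : str L u ∈ n)
    (hv : str L v ∈ m) : (n ∈ F ∧ n = m) ↔ (labV L u ∈ Fs L F ∧ labV L v = labV L u) := by
  rcases node_cases hS hL hF hn hu with ⟨h1, h2, h3⟩ | ⟨h1, h2, h3⟩
  · constructor
    · rintro ⟨-, h⟩
      refine ⟨h1, lab_eq hS hL ?_⟩
      rw [← h3, h]; exact hv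
    · rintro ⟨-, h⟩
      refine ⟨h2, ?_⟩
      rcases node_cases hS hL hF hm hv with ⟨h4, h5, h6⟩ | ⟨h4, h5, h6⟩
      · rw [h3, h6]
        unfold cir
        rw [h]
      · rw [h] at h4
        exact absurd h1 h4
  · exact ⟨fun h => absurd h.1 h2, fun h => absurd h.1 h1⟩

/-! ### Gains -/

variable (hS : Sfree S) (hL : MinCover S L)

theorem g_eq (u v : VS L) : (fd hS hL).g (Fs L F) u v =
    if labV L u ∈ Fs L F ∧ labV L v = labV L u then
      2 * (cycW (cir L u) : ℤ) - 2 * cycO (cir L u)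
    else 2 * (ov (str L u) (str L v) : ℤ) - px L F u - pe L F v := by
  unfold FD.g px pe
  have h1 : (fd hS hL).lab = labV L := rfl
  have h2 : (fd hS hL).w = fun k => cycW (L.getD k []) := rfl
  have h3 : (fd hS hL).e = fun k => cycO (L.getD k []) := rfl
  have h4 : (fd hS hL).ov = fun u v => ov (str L u) (str L v) := rfl
  have h5 : (fd hS hL).eps = fun v => epsS (cir L v) (str L v) := rfl
  have h6 : (fd hS hL).epsm = fun v => epmS (cir L v) (str L v) := rfl
  rw [h1, h2, h3, h4, h5, h6]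
  by_cases h : labV L u ∈ Fs L F ∧ labV L v = labV L u
  · rw [if_pos h, if_pos h]; rfl
  · rw [if_neg h, if_neg h]
    congr 1
    · congr 1
      split_ifs <;> simp
    · split_ifs <;> simp

theorem g_le (hF : ∀ c ∈ F, c ∈ L) {n m : Cir} (hn : n ∈ nodes L F) (hm : m ∈ nodes L F)
    {u v : VS L} (hu : str L u ∈ n) (hv : str L v ∈ m) (B : ℕ) :
    (fd hS hL).g (Fs L F) u v ≤ (gn B F n m : ℤ) - 2 * B := by
  have hl := loop_iff hS hL hF hn hm hu hv
  rw [g_eq]
  by_cases h : labV L u ∈ Fs L F ∧ labV L v = labV L u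
  · rw [if_pos h]
    have h' := hl.2 h
    have hn' : n = cir L u := by
      rcases node_cases hS hL hF hn hu with ⟨h1, h2, h3⟩ | ⟨h1, h2, h3⟩
      · exact h3
      · exact absurd h'.1 h2
    unfold gn
    rw [if_pos (by simpa using h'), ← hn']
    omega
  · rw [if_neg h]
    have h' : ¬ (n ∈ F ∧ n = m) := fun h' => h (hl.1 h')
    unfold gn pk
    rw [if_neg (by simpa using h'), if_neg (by simpa using h')]
    have h1 := H950.le_amax (fun p : (List ℕ × ℕ) × (List ℕ × ℕ) => gv B p.1 p.2) (([], 0), ([], 0))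
      ((exs F n).flatMap (fun p => (ens F m).map (fun q => (p, q))))
      ((str L u, px L F u), (str L v, pe L F v))
      (List.mem_flatMap.2 ⟨_, mem_exs hS hL hF hn hu, List.mem_map.2
        ⟨_, mem_ens hS hL hF hm hv, rfl⟩⟩)
    have h2 : 2 * B + 2 * ov (str L u) (str L v) ≤
        gv B (str L u, px L F u) (str L v, pe L F v) + (px L F u + pe L F v) := by
      unfold gv
      dsimp only
      omega
    dsimp only at h1
    omega

theorem mem_last {c : List (List ℕ)} (hc : c ≠ []) : c.getLastD [] ∈ c := by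
  rw [List.getLastD_eq_getLast?, List.getLast?_eq_some_getLast hc]
  exact List.getLast_mem hc

theorem mem_head {c : List (List ℕ)} (hc : c ≠ []) : c.headD [] ∈ c := by
  cases c with
  | nil => exact absurd rfl hc
  | cons a c => simp

/-- The strings of the chosen arc. -/
theorem pk_str (hne : ∀ c ∈ L, c ≠ []) {n m : Cir} (hn : n ∈ nodes L F) (hm : m ∈ nodes L F)
    (B : ℕ) : (pk B F n m).1.1 ∈ n ∧ (pk B F n m).2.1 ∈ m := by
  have h1 := H950.nodes_ne hne hn
  have h2 := H950.nodes_ne hne hm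
  rcases H950.pk_mem (B := B) (F := F) h1 h2 with ⟨h3, h4⟩ | ⟨h3, h4, h5⟩
  · exact ⟨H950.fst_mem_exs h3, H950.fst_mem_ens h4⟩
  · subst h4
    rw [h5]
    exact ⟨mem_last h1, mem_head h1⟩

theorem g_pk (hF : ∀ c ∈ F, c ∈ L) {n m : Cir} (hn : n ∈ nodes L F) (hm : m ∈ nodes L F)
    {u v : VS L} (hu : str L u = (pk (bnd S) F n m).1.1) (hv : str L v = (pk (bnd S) F n m).2.1) :
    (gn (bnd S) F n m : ℤ) - 2 * bnd S = (fd hS hL).g (Fs L F) u v := by
  have hs := pk_str hL.ne hn hm (bnd S)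
  have hun : str L u ∈ n := by rw [hu]; exact hs.1
  have hvm : str L v ∈ m := by rw [hv]; exact hs.2
  have hl := loop_iff hS hL hF hn hm hun hvm
  have hb : ∀ v : VS L, (str L v).length ≤ bnd S := fun v =>
    (H950.length_lt_bnd (hL.perm.mem_iff.1 (str_mem v))).le
  rw [g_eq]
  by_cases h : labV L u ∈ Fs L F ∧ labV L v = labV L u
  · rw [if_pos h]
    have h' := hl.2 h
    have hn' : n = cir L u := by
      rcases node_cases hS hL hF hn hun with ⟨h1, h2, h3⟩ | ⟨h1, h2, h3⟩
      · exact h3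
      · exact absurd h'.1 h2
    unfold gn
    rw [if_pos (by simpa using h'), ← hn']
    have h1 : cycO n ≤ bnd S := by
      have h2 := ov_le_left (n.getLastD []) (n.headD [])
      have h3 : n.getLastD [] ∈ L.flatten :=
        H950.mem_of_nodes hn (mem_last (H950.nodes_ne hL.ne hn))
      have h4 := H950.length_lt_bnd (hL.perm.mem_iff.1 h3)
      unfold cycO
      omega
    omega
  · rw [if_neg h]
    have h' : ¬ (n ∈ F ∧ n = m) := fun h' => h (hl.1 h')
    rcases H950.pk_mem (B := bnd S) (F := F) (H950.nodes_ne hL.ne hn)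
      (H950.nodes_ne hL.ne hm) with ⟨h3, h4⟩ | ⟨h3, h4, h5⟩
    · obtain ⟨e1, e2⟩ := exs_px hS hL hF hn h3 hu
      obtain ⟨e3, e4⟩ := ens_pe hS hL hF hm h4 hv
      unfold gn
      rw [if_neg (by simpa using h')]
      have h6 := hb u
      have h7 := hb v
      unfold gv
      rw [← hu, ← hv, e1, e3]
      rw [e1] at e2
      rw [e3] at e4
      omega
    · exact absurd ⟨h3, h4⟩ h'

/-! ### The value of an assignment -/

theorem sum_range_fin {n : ℕ} (g : ℕ → ℕ) : ((List.range n).map g).sum = ∑ i : Fin n, g i := by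
  rw [← List.sum_ofFn]
  congr 1
  apply List.ext_getElem
  · simp
  · intro i h1 h2
    simp

theorem ent_gmat (B : ℕ) (F N : List Cir) {i j : ℕ} (hi : i < N.length) (hj : j < N.length) :
    ent (gmat B F N) i j = gn B F N[i] N[j] := by
  have h1 : (gmat B F N).getD i [] = N.map (fun m => gn B F N[i] m) := by
    unfold gmat
    rw [List.getD_eq_getElem _ _ (by rw [List.length_map]; exact hi), List.getElem_map]
  unfold ent
  rw [h1, List.getD_eq_getElem _ _ (by rw [List.length_map]; exact hj), List.getElem_map]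

theorem asgVal_gmat (B : ℕ) (F N : List Cir) {P : List ℕ} (Y : Equiv.Perm (Fin N.length))
    (hY : ∀ i : Fin N.length, P.getD i 0 = Y i) :
    asgVal (gmat B F N) P = ∑ i : Fin N.length, gn B F N[(i : ℕ)] N[(Y i : ℕ)] := by
  unfold asgVal
  rw [H950.length_gmat, sum_range_fin]
  refine sum_congr rfl fun i _ => ?_
  rw [hY, ent_gmat B F N i.2 (Y i).2]

/-! ### The optimum -/

/-- M3: the assignment of the algorithm is an integral optimum. -/
theorem exists_opt {asg : List Unit × List (List ℕ) → List ℕ} (ha : AsgOk asg)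
    (hS : Sfree S) (hL : MinCover S L) (hF : FOk L F) :
    ∃ (y : VS L → VS L → ℝ) (a : ℕ → ℕ) (c : ℤ), (fd hS hL).sys.Opt (Fs L F) y a c ∧
      (∀ k < L.length, a k = lv (nodes L F) (asgF asg (bnd S) F (nodes L F)) (L.getD k [])) ∧
      c = (((nodes L F).map (base2 F)).sum : ℤ) + 2 * bnd S * (nodes L F).length -
        asgVal (gmat (bnd S) F (nodes L F)) (asgF asg (bnd S) F (nodes L F)) := by
  obtain ⟨hP, hopt⟩ := H950.asgF_spec ha hL.perm hL.ne hF.sub
  obtain ⟨P, hPe⟩ : ∃ P, P = asgF asg (bnd S) F (nodes L F) := ⟨_, rfl⟩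
  rw [← hPe] at hP hopt ⊢
  obtain ⟨Y, hY⟩ := exists_perm_of_perm_range hP
  have hmem : ∀ i : Fin (nodes L F).length, (nodes L F)[(i : ℕ)] ∈ nodes L F := fun i =>
    List.getElem_mem _
  have hp := fun i : Fin (nodes L F).length => pk_str hL.ne (hmem i) (hmem (Y i)) (bnd S)
  have hh : ∀ i : Fin (nodes L F).length, ∃ v : VS L,
      str L v = (pk (bnd S) F (nodes L F)[(i : ℕ)] (nodes L F)[(Y i : ℕ)]).1.1 := fun i =>
    exists_str (H950.mem_of_nodes (hmem i) (hp i).1)
  have he : ∀ i : Fin (nodes L F).length, ∃ v : VS L,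
      str L v = (pk (bnd S) F (nodes L F)[(i : ℕ)] (nodes L F)[(Y i : ℕ)]).2.1 := fun i =>
    exists_str (H950.mem_of_nodes (hmem (Y i)) (hp i).2)
  choose h hh using hh
  choose a he using he
  have hI : FD.Int (fd hS hL) (Fs L F) (Fin (nodes L F).length) (rho L F) Y h a := by
    constructor
    · intro k hk
      unfold Fs at hk
      rw [mem_filter] at hk
      show k ∈ (Finset.range L.length).filter (fun k => big (L.getD k []) = true)
      rw [mem_filter]
      exact ⟨hk.1, hF.big _ hk.2⟩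
    · exact rho_iff hS hL hF.sub
    · intro i
      exact rho_eq hS hL (by rw [hh]; exact (hp i).1)
    · intro i
      exact rho_eq hS hL (by rw [he]; exact (hp i).2)
  have key := hI.opt (fun i j => (gn (bnd S) F (nodes L F)[(i : ℕ)] (nodes L F)[(j : ℕ)] : ℤ) -
      2 * bnd S)
    (fun u v => g_le hS hL hF.sub (hmem _) (hmem _) (mem_rho u) (mem_rho v) (bnd S))
    (fun i => g_pk hS hL hF.sub (hmem i) (hmem (Y i)) (hh i) (he i))
    (by
      intro Y'
      obtain ⟨P', hP', hY'⟩ := exists_assign_of_perm Y'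
      have h1 := hopt P' hP'
      rw [asgVal_gmat (bnd S) F (nodes L F) Y hY,
        asgVal_gmat (bnd S) F (nodes L F) Y' fun i => (hY' i).symm] at h1
      simp only [sum_sub_distrib]
      have h2 : ∑ i : Fin (nodes L F).length,
          (gn (bnd S) F (nodes L F)[(i : ℕ)] (nodes L F)[(Y' i : ℕ)] : ℤ) ≤
          ∑ i : Fin (nodes L F).length,
            (gn (bnd S) F (nodes L F)[(i : ℕ)] (nodes L F)[(Y i : ℕ)] : ℤ) := by
        exact_mod_cast h1
      linarith)
  refine ⟨_, _, _, key, ?_, ?_⟩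
  · intro k hk
    refine (H802.lv_card hS hL hP hk h a ?_ ?_).symm
    · intro i
      rw [hh, List.getD_eq_getElem _ _ i.2]
      exact (hp i).1
    · intro i
      rw [he, hY, List.getD_eq_getElem _ _ (Y i).2]
      exact (hp i).2
  · have h1 := H802.base_sum hS hL hF
    have h2 : (fd hS hL).K (Fs L F) = (((nodes L F).map (base2 F)).sum : ℤ) := by
      rw [h1]
      unfold FD.K
      push_cast
      rfl
    rw [h2, asgVal_gmat (bnd S) F (nodes L F) Y hY, sum_sub_distrib, sum_const, card_univ,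
      Fintype.card_fin]
    push_cast
    rw [nsmul_eq_mul]
    ring

end Vale.Agent.P333.H29
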