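import Mathlib
import Vale.Agent.P333.H29.M3
import Vale.Agent.P333.H359.M5
import Vale.Agent.P333.H70.M4b

set_option linter.all false

/-!
P333, ratio 2: part M.
-/

namespace Vale.Agent.P333.H29

open Finset Vale.Agent.P333 Vale.Agent.P333.U Vale.Agent.P333.G Vale.Agent.P333.Y
  Vale.Agent.P333.H359

/-- M3. -/
theorem m3 : H359.M3 := by
  intro asg ha S L hS hL F hF
  obtain ⟨y, a, c, h1, h2, h3⟩ := exists_opt ha hS hL hF
  refine ⟨y, a, c, h1, h2, ?_⟩
  rw [h3]
  push_cast
  ring

/-- The part M. -/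
theorem partM : PartM := H359.partM_of H950.partM0 m3 H70.m4

end Vale.Agent.P333.H29
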